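import Vale.Agent.P061.Part5
import Vale.Agent.P061.Thin

namespace Vale.Agent.Results.P061.DenseThinTrees

open Vale.Agent.P061

/-- (1) Every `k`-edge-connected multigraph with `n ≥ 2` vertices and edge multiplicities at most
`μ` has a spanning tree of thinness `11000 (μ n / k)⁶ / k`; so the strong thin tree conjecture
holds for dense graphs (`k ≥ δ μ n`), with constant `11000 δ⁻⁶`.
(2) For `1 ≤ k < n` there is a `k`-edge-connected multigraph on `n` vertices (for `n = k + 1`, the
complete graph) all of whose spanning trees have thinness at least `4k/(k+1)²`. -/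
theorem result :
    (∀ (V E : Type) [Finite V] [Finite E] (G : MGraph V E) (k μ : ℕ), 1 ≤ k →
      2 ≤ Nat.card V → G.EdgeConnected k →
      (∀ u v : V, ({e | G.ends e = s(u, v)} : Set E).ncard ≤ μ) →
      ∃ T : Set E, G.IsSpanningTree T ∧
        G.IsThin T (11000 * ((μ : ℝ) * Nat.card V / k) ^ 6 / k)) ∧
    (∀ k n : ℕ, 1 ≤ k → k < n → ∃ (E : Type) (_ : Finite E) (G : MGraph (Fin n) E),
      G.EdgeConnected k ∧ ∀ T : Set E, G.IsSpanningTree T → ∀ α : ℝ, G.IsThin T α →
        4 * (k : ℝ) / ((k : ℝ) + 1) ^ 2 ≤ α) :=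
  ⟨fun _ _ _ _ G k μ hk hV hG hμ => dense G k μ hk hV hG hμ,
    fun k n hk hkn => ⟨Ed k n, inferInstance, ex k n, ex_conn hkn,
      fun _ hT _ hα => ex_bound hk hkn hT hα⟩⟩

end Vale.Agent.Results.P061.DenseThinTrees
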