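import Vale.Agent.P061.Thin

namespace Vale.Agent.Results.P061.FourOverK

open Vale.Agent.P061 Filter Topology

/-- (1) For all `1 ≤ k < n` there is a `k`-edge-connected multigraph on `n` vertices all of whose
spanning trees have thinness at least `4k/(k+1)²`.
(2) Any constant `C` for which the strong thin tree conjecture holds satisfies `4 ≤ C`. -/
theorem result :
    (∀ k n : ℕ, 1 ≤ k → k < n → ∃ (E : Type) (_ : Finite E) (G : MGraph (Fin n) E),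
      G.EdgeConnected k ∧ ∀ T : Set E, G.IsSpanningTree T → ∀ α : ℝ, G.IsThin T α →
        4 * (k : ℝ) / ((k : ℝ) + 1) ^ 2 ≤ α) ∧
    (∀ C : ℝ, (∀ k : ℕ, 1 ≤ k → ∀ (V E : Type) [Finite V] [Finite E] (G : MGraph V E),
      2 ≤ Nat.card V → G.EdgeConnected k →
        ∃ T : Set E, G.IsSpanningTree T ∧ G.IsThin T (C / k)) → 4 ≤ C) := by
  refine ⟨fun k n hk hkn => ⟨Ed k n, inferInstance, ex k n, ex_conn hkn,
    fun T hT α hα => ex_bound hk hkn hT hα⟩, fun C hC => ?_⟩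
  have h1 : ∀ k : ℕ, 4 * ((k + 1 : ℕ) : ℝ) ^ 2 / (((k + 1 : ℕ) : ℝ) + 1) ^ 2 ≤ C := by
    intro k
    obtain ⟨T, hT, hthin⟩ := hC (k + 1) (Nat.le_add_left 1 k) (Fin (k + 2)) (Ed (k + 1) (k + 2))
      (ex (k + 1) (k + 2)) (by rw [Nat.card_fin]; omega) (ex_conn (by omega))
    have h2 := ex_bound (Nat.le_add_left 1 k) (by omega) hT hthin
    have hk : (0 : ℝ) < ((k + 1 : ℕ) : ℝ) := by positivity
    rw [le_div_iff₀ hk] at h2
    calc 4 * ((k + 1 : ℕ) : ℝ) ^ 2 / (((k + 1 : ℕ) : ℝ) + 1) ^ 2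
        = 4 * ((k + 1 : ℕ) : ℝ) / (((k + 1 : ℕ) : ℝ) + 1) ^ 2 * ((k + 1 : ℕ) : ℝ) := by ring
      _ ≤ C := h2
  have h3 : Tendsto (fun k : ℕ => 4 * ((k + 1 : ℕ) : ℝ) ^ 2 / (((k + 1 : ℕ) : ℝ) + 1) ^ 2) atTop
      (𝓝 (4 * 1 ^ 2)) := by
    have h4 : Tendsto (fun k : ℕ => ((k + 1 : ℕ) : ℝ) / (((k + 1 : ℕ) : ℝ) + 1)) atTop (𝓝 1) :=
      (tendsto_natCast_div_add_atTop (1 : ℝ)).comp (tendsto_add_atTop_nat 1)
    refine Tendsto.congr (fun k => ?_) ((h4.pow 2).const_mul 4)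
    rw [div_pow]
    ring
  have h5 := le_of_tendsto' h3 h1
  linarith

end Vale.Agent.Results.P061.FourOverK
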